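import Vale.Agent.P181.GP.Spec
import Vale.Agent.P181.PM.Root
import Mathlib.Algebra.MvPolynomial.Funext

/-!
P181, graph power map theorem, row KEY: one epsilon per row.
-/

set_option autoImplicit false

namespace Vale.Agent.P181.H67.GKey

open Finset Vale.Agent.P181.PM

variable {A : Type} [CommRing A] [Algebra ℂ A] {a : ℕ}

lemma sum_pow_smul (c : Fin a → ℂ) (h : Fin a → A) (m : ℕ) :
    (∑ t, c t • h t) ^ m = ∑ w : Fin m → Fin a, (∏ i, c (w i)) • ∏ i, h (w i) := by
  rw [Fintype.sum_pow]
  apply Finset.sum_congr rfl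
  intro w _
  rw [Finset.prod_smul]

/-- Index of a term of the expansion of one row. -/
abbrev Idx (n a : ℕ) : Type := Σ m : Fin (n + 1), (Fin m.val → Fin a)

/-- Exponent of a choice of terms. -/
noncomputable def mon {n : ℕ} (r : Fin a → Idx n a) : Fin a →₀ ℕ :=
  ∑ t, ∑ i : Fin (r t).1.val, Finsupp.single ((r t).2 i) 1

/-- The squarefree exponent. -/
noncomputable def one (a : ℕ) : Fin a →₀ ℕ := ∑ t, Finsupp.single t 1

lemma one_apply (j : Fin a) : one a j = 1 := by
  unfold one
  rw [Finsupp.finsetSum_apply, Finset.sum_eq_single j]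
  · exact Finsupp.single_eq_same
  · intro b _ hb
    exact Finsupp.single_eq_of_ne (by tauto)
  · intro h
    exact absurd (Finset.mem_univ j) h

lemma mon_apply {n : ℕ} (r : Fin a → Idx n a) (j : Fin a) :
    mon r j = ∑ t, (univ.filter (fun i : Fin (r t).1.val => (r t).2 i = j)).card := by
  unfold mon
  rw [Finsupp.finsetSum_apply]
  apply Finset.sum_congr rfl
  intro t _
  rw [Finsupp.finsetSum_apply, Finset.card_filter]
  apply Finset.sum_congr rfl
  intro i _
  rw [Finsupp.single_apply]

lemma sum_len {n : ℕ} (r : Fin a → Idx n a) (hr : mon r = one a) :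
    ∑ t, (r t).1.val = a := by
  have h1 : ∑ j, mon r j = a := by
    rw [hr]
    rw [Finset.sum_congr rfl (fun j _ => one_apply j)]
    simp
  have h2 : ∑ j, mon r j = ∑ t, (r t).1.val := by
    rw [Finset.sum_congr rfl (fun j _ => mon_apply r j), Finset.sum_comm]
    apply Finset.sum_congr rfl
    intro t _
    have h3 := Finset.card_eq_sum_card_fiberwise (s := (univ : Finset (Fin (r t).1.val)))
      (t := (univ : Finset (Fin a))) (f := (r t).2) (fun _ _ => by simp)
    rw [Finset.card_univ, Fintype.card_fin] at h3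
    exact h3.symm
  omega

lemma inj_of {n : ℕ} (r : Fin a → Idx n a) (hr : mon r = one a) (t : Fin a) :
    Function.Injective (r t).2 := by
  intro i i' hii
  by_contra hne
  have h1 := mon_apply r ((r t).2 i)
  rw [hr, one_apply] at h1
  have h2 : 1 < (univ.filter (fun k : Fin (r t).1.val => (r t).2 k = (r t).2 i)).card := by
    rw [Finset.one_lt_card]
    exact ⟨i, by simp, i', by simp [hii], hne⟩
  have h3 := Finset.single_le_sum (s := univ) (f := fun t' =>
    (univ.filter (fun k : Fin (r t').1.val => (r t').2 k = (r t).2 i)).card)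
    (fun _ _ => Nat.zero_le _) (Finset.mem_univ t)
  omega

lemma disj_of {n : ℕ} (r : Fin a → Idx n a) (hr : mon r = one a) {t t' : Fin a} (htt : t ≠ t')
    (i : Fin (r t).1.val) (i' : Fin (r t').1.val) : (r t).2 i ≠ (r t').2 i' := by
  intro hii
  have h1 := mon_apply r ((r t).2 i)
  rw [hr, one_apply] at h1
  have h2 : 0 < (univ.filter (fun k : Fin (r t).1.val => (r t).2 k = (r t).2 i)).card :=
    Finset.card_pos.2 ⟨i, by simp⟩
  have h3 : 0 < (univ.filter (fun k : Fin (r t').1.val => (r t').2 k = (r t).2 i)).card :=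
    Finset.card_pos.2 ⟨i', by simp [hii]⟩
  have h4 : ∑ u ∈ ({t, t'} : Finset (Fin a)),
      (univ.filter (fun k : Fin (r u).1.val => (r u).2 k = (r t).2 i)).card ≤
      ∑ u, (univ.filter (fun k : Fin (r u).1.val => (r u).2 k = (r t).2 i)).card :=
    Finset.sum_le_sum_of_subset (Finset.subset_univ _)
  rw [Finset.sum_pair htt] at h4
  omega

omit [Algebra ℂ A] in
lemma prod_one' {n : ℕ} (hn : n = 1) (w : Fin n → Fin a) (h : Fin a → A) :
    ∏ i, h (w i) = h (w ⟨0, by omega⟩) := by
  subst hn
  simp

/-- **Row KEY.** -/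
theorem rowKEY : Vale.Agent.P181.GP.RowKEY := by
  classical
  intro A _ _ a s q hs hq S F hsym hF φ f2 h hmem hdiv
  obtain ⟨p, hp1, _, hp3⟩ := exists_root q hq s
  obtain ⟨hc1, hc2⟩ := root_coeff hp3
  set n := s * q with hn
  have hn1 : 1 ≤ n := Nat.mul_pos hs hq
  obtain ⟨G, hG⟩ : ∃ G : Idx n a → A, G = fun e =>
    (p ^ q).coeff e.1.val • (f2 ^ q * ((∏ i, h (e.2 i)) * φ ^ (n - e.1.val))) := ⟨_, rfl⟩
  -- the test element
  have hfS : ∀ c : Fin a → ℂ,
      f2 * ∑ j ∈ range (s + 1), p.coeff j • ((∑ t, c t • h t) ^ j * φ ^ (s - j)) ∈ S := by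
    intro c
    rw [Finset.mul_sum]
    apply Submodule.sum_mem
    intro j hj
    rw [sum_pow_smul, Finset.sum_mul, Finset.smul_sum, Finset.mul_sum]
    apply Submodule.sum_mem
    intro w _
    have h1 : f2 * (p.coeff j • (((∏ i, c (w i)) • ∏ i, h (w i)) * φ ^ (s - j))) =
        (p.coeff j * ∏ i, c (w i)) • (f2 * ((∏ i, h (w i)) * φ ^ (s - j))) := by
      simp only [Algebra.smul_def, map_mul]
      ring
    rw [h1]
    exact S.smul_mem _ (hmem j (by rw [mem_range] at hj; omega) w)
  have hpow : ∀ c : Fin a → ℂ,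
      (f2 * ∑ j ∈ range (s + 1), p.coeff j • ((∑ t, c t • h t) ^ j * φ ^ (s - j))) ^ q =
      ∑ e : Idx n a, (∏ i, c (e.2 i)) • G e := by
    intro c
    rw [mul_pow, hom_pow p hp1, Finset.mul_sum, Fintype.sum_sigma, Finset.sum_range]
    apply Finset.sum_congr rfl
    intro m _
    rw [sum_pow_smul, Finset.sum_mul, Finset.smul_sum, Finset.mul_sum]
    apply Finset.sum_congr rfl
    intro w _
    simp only [hG, Algebra.smul_def]
    ring
  let Z : MvPolynomial (Fin a) ℂ :=
    ∑ r : Fin a → Idx n a, MvPolynomial.C (F (fun t => G (r t))) *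
      ∏ t, ∏ i : Fin (r t).1.val, MvPolynomial.X ((r t).2 i)
  have hZ : Z = 0 := by
    apply MvPolynomial.funext
    intro c
    rw [map_zero, ← hF _ (hfS c), hpow c, MultilinearMap.map_sum]
    simp only [Z, map_sum, map_mul, MvPolynomial.eval_C, map_prod, MvPolynomial.eval_X]
    apply Finset.sum_congr rfl
    intro r _
    rw [MultilinearMap.map_smul_univ, smul_eq_mul, mul_comm]
  have hmon : ∀ r : Fin a → Idx n a,
      (∏ t, ∏ i : Fin (r t).1.val, (MvPolynomial.X ((r t).2 i) : MvPolynomial (Fin a) ℂ)) =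
        MvPolynomial.monomial (mon r) 1 := by
    intro r
    unfold mon
    rw [MvPolynomial.monomial_sum_one]
    apply Finset.prod_congr rfl
    intro t _
    rw [MvPolynomial.monomial_sum_one]
    rfl
  have h2 := congrArg (fun z => MvPolynomial.coeff (one a) z) hZ
  simp only [Z, MvPolynomial.coeff_sum, MvPolynomial.coeff_zero, MvPolynomial.coeff_C_mul, hmon,
    MvPolynomial.coeff_monomial, mul_ite, mul_one, mul_zero] at h2
  rw [← Finset.sum_filter] at h2
  -- each surviving term
  have h3 : ∀ r ∈ univ.filter (fun r : Fin a → Idx n a => mon r = one a),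
      F (fun t => G (r t)) = if (∀ t, (r t).1.val = 1) then
        F (fun t => f2 ^ q * (h t * φ ^ (n - 1))) else 0 := by
    intro r hr
    rw [Finset.mem_filter] at hr
    have hr := hr.2
    by_cases hall : ∀ t, (r t).1.val = 1
    · rw [if_pos hall]
      let σ : Fin a → Fin a := fun t => (r t).2 ⟨0, by rw [hall t]; exact Nat.one_pos⟩
      have hσi : Function.Injective σ := by
        intro t t' htt
        by_contra hne
        exact disj_of r hr hne _ _ htt
      have hσb : Function.Bijective σ := Finite.injective_iff_bijective.1 hσi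
      rw [← hsym (Equiv.ofBijective σ hσb) (fun t => f2 ^ q * (h t * φ ^ (n - 1)))]
      congr 1
      funext t
      rw [Equiv.ofBijective_apply, hG]
      simp only
      have e1 : (∏ i : Fin (r t).1.val, h ((r t).2 i)) = h (σ t) := prod_one' (hall t) _ _
      rw [e1]
      clear e1
      rw [hall t, hc1 hs, one_smul]
    · rw [if_neg hall]
      have h4 : ∃ t, 2 ≤ (r t).1.val := by
        by_contra hcon
        push Not at hcon
        apply hall
        intro t
        have h5 : ∀ j, (r j).1.val ≤ 1 := fun j => by have := hcon j; omega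
        by_contra hi
        have h6 : ∑ j, (r j).1.val < ∑ _j : Fin a, 1 :=
          Finset.sum_lt_sum (fun j _ => h5 j) ⟨t, Finset.mem_univ _, by have := h5 t; omega⟩
        rw [Finset.sum_const, Finset.card_univ, Fintype.card_fin, smul_eq_mul, mul_one,
          sum_len r hr] at h6
        omega
      obtain ⟨t, ht⟩ := h4
      rcases Nat.lt_or_ge s (r t).1.val with hlt | hge
      · apply hdiv (fun t => G (r t)) t (univ.image (r t).2)
        · rw [Finset.card_image_of_injective _ (inj_of r hr t), Finset.card_univ,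
            Fintype.card_fin]
          omega
        · rw [Finset.prod_image (fun x _ y _ hxy => inj_of r hr t hxy), hG]
          simp only [Algebra.smul_def]
          exact Dvd.dvd.mul_left (Dvd.dvd.mul_left (Dvd.intro _ rfl) _) _
      · apply MultilinearMap.map_coord_zero _ t
        rw [hG]
        simp only
        rw [hc2 _ ht hge, zero_smul]
  rw [Finset.sum_congr rfl h3, ← Finset.sum_filter, Finset.sum_const, nsmul_eq_mul] at h2
  refine (mul_eq_zero.1 h2).resolve_left (Nat.cast_ne_zero.2 ?_)
  apply Finset.card_ne_zero_of_mem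
    (a := (fun t => ⟨⟨1, by omega⟩, fun _ => t⟩ : Fin a → Idx n a))
  rw [Finset.mem_filter, Finset.mem_filter]
  refine ⟨⟨Finset.mem_univ _, ?_⟩, fun t => rfl⟩
  unfold mon one
  apply Finset.sum_congr rfl
  intro t _
  exact Fin.sum_univ_one _

end Vale.Agent.P181.H67.GKey
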