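import Vale.Agent.P181.GP.Spec
import Mathlib.Algebra.MvPolynomial.Funext

/-!
P181, graph power map theorem, row STEP, from the removal lemma of helper49.
-/

set_option autoImplicit false

namespace Vale.Agent.P181.H67.GStep

open Finset MvPolynomial Vale.Agent.P181.GP

variable {a : ℕ}

/-- Exponent of a row. -/
noncomputable def ex (z : Bool) (E : Fin a → ℕ) : Fin a × Bool →₀ ℕ :=
  ∑ i, Finsupp.single (i, z) (E i)

lemma ex_apply (z : Bool) (E : Fin a → ℕ) (j : Fin a) : ex z E (j, z) = E j := by
  unfold ex
  rw [Finsupp.finsetSum_apply, Finset.sum_eq_single j]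
  · exact Finsupp.single_eq_same
  · intro b _ hb
    rw [Finsupp.single_apply, if_neg]
    intro h
    exact hb (Prod.ext_iff.1 h).1
  · intro h
    exact absurd (Finset.mem_univ j) h

lemma prod_ex (z : Bool) (E : Fin a → ℕ) :
    (∏ i, (X (i, z) : Rg a) ^ (E i)) = monomial (ex z E) 1 := by
  unfold ex
  rw [monomial_sum_one]
  apply Finset.prod_congr rfl
  intro i _
  rw [X_pow_eq_monomial]

lemma exists_mono (F : MultilinearMap ℂ (fun _ : Fin a => Rg a) ℂ) (R : Fin a → Rg a)
    (e : Fin a → (Fin a × Bool →₀ ℕ)) (h : F (fun t => R t * monomial (e t) 1) ≠ 0) :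
    ∃ m : Fin a → (Fin a × Bool →₀ ℕ), F (fun t => monomial (m t + e t) 1) ≠ 0 := by
  classical
  by_contra hcon
  push Not at hcon
  apply h
  have h1 : (fun t => R t * monomial (e t) 1) = fun t => ∑ m ∈ (R t).support,
      (coeff m (R t)) • (monomial (m + e t) (1 : ℂ)) := by
    funext t
    conv_lhs => rw [(R t).as_sum]
    rw [Finset.sum_mul]
    apply Finset.sum_congr rfl
    intro m _
    rw [monomial_mul, mul_one, smul_monomial, smul_eq_mul, mul_one]
  rw [h1, MultilinearMap.map_sum_finset]
  apply Finset.sum_eq_zero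
  intro r _
  rw [MultilinearMap.map_smul_univ, hcon, smul_zero]

/-- **Row STEP.** -/
theorem rowSTEP : RowSTEP := by
  classical
  intro a s c κ Q H r z F hF R hrel h1 h2 h3
  apply Vale.Agent.P181.H49.removal (s := s) (c := c) (κ := κ) (Q := Q) (H := H) (r := r)
    (G := fun E => F (fun t => R t * ∏ i, X (i, z) ^ (E t i)))
  · intro E hE t
    simp only [prod_ex] at hE
    obtain ⟨m, hm⟩ := exists_mono F R _ hE
    refine le_trans (Finset.card_le_card ?_) ((hF _ hm).1 t)
    intro i hi
    rw [Finset.mem_filter] at hi ⊢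
    refine ⟨hi.1, ?_⟩
    rw [Finsupp.add_apply, ex_apply]
    omega
  · intro E hE i
    simp only [prod_ex] at hE
    obtain ⟨m, hm⟩ := exists_mono F R _ hE
    refine le_trans (Finset.sum_le_sum fun t _ => ?_) ((hF _ hm).2 i)
    rw [Finsupp.add_apply, ex_apply]
    omega
  · intro P hP1 hP2 β
    -- the polynomial in the coefficients of `ξ`
    let N : Finset (Fin a → Fin a → ℕ) :=
      Fintype.piFinset (fun _ : Fin a => (Finset.univ : Finset (Fin a)).piAntidiag κ)
    let Z : MvPolynomial (Fin a) ℂ := ∑ n ∈ N, C ((∏ t, (Nat.multinomial univ (n t) : ℂ)) *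
      F (fun t => R t * ∏ i, X (i, z) ^ (P t i + n t i))) *
        monomial (Finsupp.equivFunOnFinite.symm (fun i => ∑ t, n t i)) 1
    have hZ : Z = 0 := by
      apply MvPolynomial.funext
      intro x
      have hξ : (∑ i, x i • (X (i, z) : Rg a)) ∈ LT a z := by
        apply Submodule.sum_mem
        intro i _
        exact Submodule.smul_mem _ _ (Submodule.subset_span ⟨i, rfl⟩)
      have h4 := hrel _ hξ P hP1 hP2
      have h5 : (fun t => R t * ((∑ i, x i • (X (i, z) : Rg a)) ^ κ * ∏ i, X (i, z) ^ (P t i))) =
          fun t => ∑ n ∈ (Finset.univ : Finset (Fin a)).piAntidiag κ,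
            ((Nat.multinomial univ n : ℂ) * ∏ i, x i ^ n i) •
              (R t * ∏ i, (X (i, z) : Rg a) ^ (P t i + n i)) := by
        funext t
        rw [Finset.sum_pow_eq_sum_piAntidiag, Finset.sum_mul, Finset.mul_sum]
        apply Finset.sum_congr rfl
        intro n _
        simp only [pow_add, Finset.prod_mul_distrib, MvPolynomial.smul_eq_C_mul,
          map_mul, map_natCast, map_prod, map_pow, mul_pow]
        ring
      rw [h5, MultilinearMap.map_sum_finset] at h4
      rw [map_zero, ← h4]
      simp only [Z, map_sum, map_mul, eval_C]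
      apply Finset.sum_congr rfl
      intro n _
      rw [MultilinearMap.map_smul_univ, eval_monomial, smul_eq_mul, Finset.prod_mul_distrib]
      have h6 : (Finsupp.equivFunOnFinite.symm (fun i => ∑ t, n t i)).prod (fun i k => x i ^ k) =
          ∏ t, ∏ i, x i ^ (n t i) := by
        rw [Finsupp.prod_fintype _ _ (fun i => pow_zero _), Finset.prod_comm]
        apply Finset.prod_congr rfl
        intro i _
        rw [Finset.prod_pow_eq_pow_sum]
        rfl
      rw [h6]
      ring
    have h7 := congrArg (fun p => coeff (Finsupp.equivFunOnFinite.symm β) p) hZ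
    simp only [Z, coeff_sum, coeff_zero, coeff_C_mul, coeff_monomial, mul_ite, mul_one,
      mul_zero] at h7
    rw [← Finset.sum_filter] at h7
    rw [← h7]
    apply Finset.sum_congr
    · ext n
      rw [Vale.Agent.P181.H49.Dist, Finset.mem_filter, Finset.mem_filter]
      apply and_congr_right
      intro _
      rw [EmbeddingLike.apply_eq_iff_eq, _root_.funext_iff]
    · intro n _
      rfl
  · exact h1
  · exact h2
  · exact h3

end Vale.Agent.P181.H67.GStep
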