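import Mathlib.Tactic
import Mathlib.Analysis.SpecialFunctions.Pow.Real

/-!
P181, balance lemma: the numerical part.
-/

set_option autoImplicit false

namespace Vale.Agent.P181.H67

open Finset

lemma nat_half (j : ℕ) : (j : ℝ) * (1 / 2) ^ j ≤ 1 / 2 := by
  have h : (j : ℝ) ≤ 2 ^ j / 2 := by
    rcases Nat.eq_zero_or_pos j with h0 | h0
    · subst h0
      norm_num
    · obtain ⟨m, rfl⟩ : ∃ m, j = m + 1 := ⟨j - 1, by omega⟩
      have h1 : m + 1 ≤ 2 ^ m := Nat.lt_two_pow_self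
      have h2 : ((m + 1 : ℕ) : ℝ) ≤ ((2 ^ m : ℕ) : ℝ) := by exact_mod_cast h1
      push_cast at h2 ⊢
      rw [pow_succ]
      linarith
  have h2 : (0 : ℝ) < (1 / 2) ^ j := by positivity
  have h3 : (2 : ℝ) ^ j * (1 / 2) ^ j = 1 := by
    rw [← mul_pow]
    norm_num
  nlinarith

/-- All counts are at least `x0 - Y`, `2 ^ Y ≥ a`. -/
lemma bal_num {ι : Type*} [Fintype ι] (c : ι → ℕ) (x0 : ℝ) (Y : ℕ)
    (hY : Fintype.card ι ≤ 2 ^ Y)
    (h : 0 ≤ ∑ i, (1 / 2 : ℝ) ^ c i * ((c i : ℝ) - x0)) (i0 : ι) : x0 ≤ (c i0 : ℝ) + Y := by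
  classical
  by_contra hcon
  push Not at hcon
  have hw : (0 : ℝ) < (1 / 2) ^ c i0 := by positivity
  have hY2 : (0 : ℝ) < (1 / 2) ^ Y := by positivity
  have h1 : ∀ i, (1 / 2 : ℝ) ^ c i * ((c i : ℝ) - x0) ≤
      (1 / 2) ^ c i0 * (1 / 2) ^ Y * (1 / 2) := by
    intro i
    rcases le_or_gt ((c i : ℝ)) x0 with hi | hi
    · have h2 : (1 / 2 : ℝ) ^ c i * ((c i : ℝ) - x0) ≤ 0 :=
        mul_nonpos_of_nonneg_of_nonpos (by positivity) (by linarith)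
      have h3 : (0 : ℝ) ≤ (1 / 2) ^ c i0 * (1 / 2) ^ Y * (1 / 2) := by positivity
      linarith
    · have h2 : (c i0 : ℝ) + Y < c i := by linarith
      have h3 : c i0 + Y < c i := by exact_mod_cast h2
      obtain ⟨j, hj⟩ : ∃ j, c i = c i0 + Y + j := ⟨c i - (c i0 + Y), by omega⟩
      have h4 : (c i : ℝ) - x0 ≤ j := by
        rw [hj]
        push_cast
        linarith
      calc (1 / 2 : ℝ) ^ c i * ((c i : ℝ) - x0) ≤ (1 / 2) ^ c i * j :=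
            mul_le_mul_of_nonneg_left h4 (by positivity)
        _ = (1 / 2) ^ c i0 * (1 / 2) ^ Y * ((j : ℝ) * (1 / 2) ^ j) := by
            rw [hj, pow_add, pow_add]
            ring
        _ ≤ (1 / 2) ^ c i0 * (1 / 2) ^ Y * (1 / 2) :=
            mul_le_mul_of_nonneg_left (nat_half j) (by positivity)
  have h2 : ∑ i, (1 / 2 : ℝ) ^ c i * ((c i : ℝ) - x0) =
      (1 / 2 : ℝ) ^ c i0 * ((c i0 : ℝ) - x0) +
        ∑ i ∈ univ.erase i0, (1 / 2 : ℝ) ^ c i * ((c i : ℝ) - x0) :=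
    (Finset.add_sum_erase _ _ (Finset.mem_univ i0)).symm
  have h3 : ∑ i ∈ univ.erase i0, (1 / 2 : ℝ) ^ c i * ((c i : ℝ) - x0) ≤
      ((Fintype.card ι - 1 : ℕ) : ℝ) * ((1 / 2) ^ c i0 * (1 / 2) ^ Y * (1 / 2)) := by
    have h4 := Finset.sum_le_card_nsmul (univ.erase i0) _ _ (fun i _ => h1 i)
    rw [Finset.card_erase_of_mem (Finset.mem_univ i0), Finset.card_univ, nsmul_eq_mul] at h4
    exact h4
  have h5 : 1 ≤ Fintype.card ι := Fintype.card_pos_iff.2 ⟨i0⟩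
  have h6 : ((Fintype.card ι - 1 : ℕ) : ℝ) ≤ 2 ^ Y - 1 := by
    rw [Nat.cast_sub h5]
    push_cast
    have : (Fintype.card ι : ℝ) ≤ ((2 ^ Y : ℕ) : ℝ) := by exact_mod_cast hY
    push_cast at this
    linarith
  have h7 : (2 : ℝ) ^ Y * (1 / 2) ^ Y = 1 := by
    rw [← mul_pow]
    norm_num
  have h8 : ((Fintype.card ι - 1 : ℕ) : ℝ) * ((1 / 2) ^ c i0 * (1 / 2) ^ Y * (1 / 2)) ≤
      (1 / 2) ^ c i0 * ((1 - (1 / 2) ^ Y) * (1 / 2)) := by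
    calc ((Fintype.card ι - 1 : ℕ) : ℝ) * ((1 / 2) ^ c i0 * (1 / 2) ^ Y * (1 / 2)) ≤
        (2 ^ Y - 1) * ((1 / 2) ^ c i0 * (1 / 2) ^ Y * (1 / 2)) :=
          mul_le_mul_of_nonneg_right h6 (by positivity)
      _ = (1 / 2) ^ c i0 * (((2 : ℝ) ^ Y * (1 / 2) ^ Y - (1 / 2) ^ Y) * (1 / 2)) := by ring
      _ = _ := by rw [h7]
  rcases Nat.eq_zero_or_pos Y with h0 | h0
  · subst h0
    have h9 : (1 / 2 : ℝ) ^ c i0 * ((c i0 : ℝ) - x0) < 0 :=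
      mul_neg_of_pos_of_neg hw (by push_cast at hcon; linarith)
    have h10 : (1 / 2 : ℝ) ^ c i0 * ((1 - (1 / 2) ^ 0) * (1 / 2)) = 0 := by simp
    linarith
  · have h9 : (1 / 2 : ℝ) ^ c i0 * ((c i0 : ℝ) - x0) ≤ (1 / 2) ^ c i0 * (-1) := by
      apply mul_le_mul_of_nonneg_left _ hw.le
      have : (1 : ℝ) ≤ Y := by exact_mod_cast h0
      linarith
    have h10 : (1 / 2 : ℝ) ^ c i0 * ((1 - (1 / 2) ^ Y) * (1 / 2)) ≤ (1 / 2) ^ c i0 * (1 / 2) := by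
      apply mul_le_mul_of_nonneg_left _ hw.le
      linarith
    linarith

end Vale.Agent.P181.H67
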