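import Vale.Agent.P181.H67.BalNum

/-!
P181, balance lemma, combinatorial part. `V` is any function of the fillings which vanishes when a
column has two boxes in one row, has rows of length `b`, and has the Garnir exchange of a whole
short column with a part of a long one.
-/

set_option autoImplicit false

namespace Vale.Agent.P181.H67

open Finset

variable {a N G : ℕ} {l : Fin N → ℕ}

/-- Number of boxes of row `i` in the columns of `L`. -/
def cnt (L : Finset (Fin N)) (e : (Σ t, Fin (l t)) → Fin a) (i : Fin a) : ℕ :=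
  (univ.filter (fun p : Σ t, Fin (l t) => p.1 ∈ L ∧ e p = i)).card

/-- Garnir exchange. -/
def Exch (V : ((Σ t, Fin (l t)) → Fin a) → Prop) : Prop :=
  ∀ e, V e → ∀ t t1, t ≠ t1 → l t ≤ l t1 → ∃ π : Equiv.Perm (Σ t, Fin (l t)), V (e ∘ π) ∧
    (∀ p, p.1 ≠ t → p.1 ≠ t1 → π p = p) ∧ ∀ v : Fin (l t), (π ⟨t, v⟩).1 = t1

/-- The effect of an exchange on the counts. -/
lemma cnt_exch (L : Finset (Fin N)) {t t1 : Fin N} (ht : t ∉ L) (ht1 : t1 ∈ L)
    (e : (Σ t, Fin (l t)) → Fin a) (π : Equiv.Perm (Σ t, Fin (l t)))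
    (h1 : ∀ p, p.1 ≠ t → p.1 ≠ t1 → π p = p) (h2 : ∀ v : Fin (l t), (π ⟨t, v⟩).1 = t1)
    (i : Fin a) :
    cnt L (e ∘ π) i + (univ.filter (fun v : Fin (l t) => e (π ⟨t, v⟩) = i)).card =
      cnt L e i + (univ.filter (fun v : Fin (l t) => e ⟨t, v⟩ = i)).card := by
  classical
  -- both sides count the boxes of row `i` in the columns of `L ∪ {t}`
  have key : ∀ f : (Σ t, Fin (l t)) → Fin a,
      (univ.filter (fun p : Σ t, Fin (l t) => (p.1 ∈ L ∨ p.1 = t) ∧ f p = i)).card =
        cnt L f i + (univ.filter (fun v : Fin (l t) => f ⟨t, v⟩ = i)).card := by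
    intro f
    have h3 : (univ.filter (fun p : Σ t, Fin (l t) => (p.1 ∈ L ∨ p.1 = t) ∧ f p = i)) =
        (univ.filter (fun p : Σ t, Fin (l t) => p.1 ∈ L ∧ f p = i)) ∪
          (univ.filter (fun v : Fin (l t) => f ⟨t, v⟩ = i)).map
            (Function.Embedding.sigmaMk t) := by
      ext p
      simp only [mem_filter, mem_univ, true_and, mem_union, mem_map,
        Function.Embedding.sigmaMk_apply]
      constructor
      · rintro ⟨h | h, h'⟩
        · exact Or.inl ⟨h, h'⟩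
        · obtain ⟨t', v⟩ := p
          simp only at h
          subst h
          exact Or.inr ⟨v, h', rfl⟩
      · rintro (⟨h, h'⟩ | ⟨v, h, rfl⟩)
        · exact ⟨Or.inl h, h'⟩
        · exact ⟨Or.inr rfl, h⟩
    rw [h3, Finset.card_union_of_disjoint, Finset.card_map]
    · rfl
    · rw [Finset.disjoint_left]
      rintro p hp hp'
      simp only [mem_filter, mem_univ, true_and] at hp
      simp only [mem_map, mem_filter, mem_univ, true_and,
        Function.Embedding.sigmaMk_apply] at hp'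
      obtain ⟨v, _, rfl⟩ := hp'
      exact ht hp.1
  have hπ : ∀ p : Σ t, Fin (l t), ((π p).1 ∈ L ∨ (π p).1 = t) ↔ (p.1 ∈ L ∨ p.1 = t) := by
    -- `π` preserves the boxes of the two columns
    have hA : ∀ p : Σ t, Fin (l t), (p.1 = t ∨ p.1 = t1) → ((π p).1 = t ∨ (π p).1 = t1) := by
      intro p hp
      by_contra hcon
      push Not at hcon
      have h3 := h1 (π p) hcon.1 hcon.2
      have h4 := π.injective h3
      rw [h4] at hcon
      rcases hp with hp | hp
      · exact hcon.1 hp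
      · exact hcon.2 hp
    intro p
    by_cases hp : p.1 = t ∨ p.1 = t1
    · have h3 := hA p hp
      constructor
      · intro _
        rcases hp with hp | hp
        · exact Or.inr hp
        · exact Or.inl (hp ▸ ht1)
      · intro _
        rcases h3 with h3 | h3
        · exact Or.inr h3
        · exact Or.inl (h3 ▸ ht1)
    · push Not at hp
      rw [h1 p hp.1 hp.2]
  have hswap : (univ.filter (fun p : Σ t, Fin (l t) => (p.1 ∈ L ∨ p.1 = t) ∧ (e ∘ π) p = i)).card =
      (univ.filter (fun p : Σ t, Fin (l t) => (p.1 ∈ L ∨ p.1 = t) ∧ e p = i)).card := by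
    apply Finset.card_bij (fun p _ => π p)
    · intro p hp
      rw [mem_filter] at hp ⊢
      exact ⟨mem_univ _, (hπ p).2 hp.2.1, hp.2.2⟩
    · intro p _ p' _ h
      exact π.injective h
    · intro p hp
      rw [mem_filter] at hp
      refine ⟨π.symm p, ?_, π.apply_symm_apply p⟩
      rw [mem_filter]
      refine ⟨mem_univ _, ?_, ?_⟩
      · rw [← hπ, π.apply_symm_apply]
        exact hp.2.1
      · rw [Function.comp_apply, π.apply_symm_apply]
        exact hp.2.2
  have h5 := key (e ∘ π)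
  have h6 := key e
  rw [hswap, h6] at h5
  simp only [Function.comp_apply] at h5
  exact h5.symm

/-- An exchange which does not touch `L` does not change the counts in `L`. -/
lemma cnt_exch_of_not_mem (L : Finset (Fin N)) {t t1 : Fin N} (ht : t ∉ L) (ht1 : t1 ∉ L)
    (e : (Σ t, Fin (l t)) → Fin a) (π : Equiv.Perm (Σ t, Fin (l t)))
    (h1 : ∀ p, p.1 ≠ t → p.1 ≠ t1 → π p = p) (i : Fin a) : cnt L (e ∘ π) i = cnt L e i := by
  classical
  unfold cnt
  congr 1
  ext p
  simp only [mem_filter, mem_univ, true_and, Function.comp_apply]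
  apply and_congr_right
  intro hp
  rw [h1 p (fun h => ht (h ▸ hp)) (fun h => ht1 (h ▸ hp))]

lemma sum_col (M : Finset (Fin N)) (e : (Σ t, Fin (l t)) → Fin a) (f : Fin a → ℝ) :
    ∑ t ∈ M, ∑ w : Fin (l t), f (e ⟨t, w⟩) = ∑ i, (cnt M e i : ℝ) * f i := by
  classical
  have h3 : ∑ t ∈ M, ∑ w : Fin (l t), f (e ⟨t, w⟩) =
      ∑ p ∈ univ.filter (fun p : Σ t, Fin (l t) => p.1 ∈ M), f (e p) := by
    rw [Finset.sum_filter, Fintype.sum_sigma, ← Finset.sum_filter_add_sum_filter_not univ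
      (fun t => t ∈ M)]
    have h4 : ∑ t ∈ univ.filter (fun t => ¬ t ∈ M), ∑ w : Fin (l t),
        (if (⟨t, w⟩ : Σ t, Fin (l t)).1 ∈ M then f (e ⟨t, w⟩) else 0) = 0 := by
      apply Finset.sum_eq_zero
      intro t ht
      apply Finset.sum_eq_zero
      intro w _
      rw [if_neg (mem_filter.1 ht).2]
    rw [h4, add_zero, Finset.filter_mem_eq_inter, Finset.univ_inter]
    apply Finset.sum_congr rfl
    intro t ht
    apply Finset.sum_congr rfl
    intro w _
    rw [if_pos ht]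
  rw [h3, ← Finset.sum_fiberwise_of_maps_to (t := (univ : Finset (Fin a)))
    (g := fun p : Σ t, Fin (l t) => e p) (fun _ _ => Finset.mem_univ _)]
  apply Finset.sum_congr rfl
  intro i _
  rw [Finset.sum_congr rfl (fun p hp => by rw [(mem_filter.1 hp).2]), Finset.sum_const,
    nsmul_eq_mul, Finset.filter_filter]
  rfl

/-- **Balance, pure form.** -/
theorem bal_pure (V : ((Σ t, Fin (l t)) → Fin a) → Prop) (hEx : Exch V)
    (hanti : ∀ e, V e → ∀ t (u v : Fin (l t)), e ⟨t, u⟩ = e ⟨t, v⟩ → u = v) {b : ℕ}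
    (hcard : ∀ e, V e → ∀ i, (univ.filter (fun p : Σ t, Fin (l t) => e p = i)).card = b)
    (L : Fin G → Finset (Fin N)) (hdis : ∀ g g', g ≠ g' → Disjoint (L g) (L g'))
    (hlen : ∀ g, ∀ t1 ∈ L g, ∀ t, (∀ g', t ∉ L g') → l t ≤ l t1)
    (hN : ∑ g, (L g).card < N) (Y : ℕ) (hY : a ≤ 2 ^ Y) (hne : ∃ e, V e) :
    ∃ e, V e ∧ ∀ g i, ((L g).card : ℝ) * ((b : ℝ) - ∑ g', ((L g').card : ℝ)) ≤
      2 * ((N : ℝ) - ∑ g', ((L g').card : ℝ)) * ((cnt (L g) e i : ℝ) + Y) := by
  classical
  let Φ : ((Σ t, Fin (l t)) → Fin a) → ℝ := fun e => ∑ g, ∑ i, (1 / 2 : ℝ) ^ cnt (L g) e i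
  obtain ⟨e, he, hmin⟩ := Set.exists_min_image {e | V e} Φ (Set.toFinite _)
    (by obtain ⟨e, he⟩ := hne; exact ⟨e, he⟩)
  refine ⟨e, he, ?_⟩
  have he' : V e := he
  intro g i0
  let O : Finset (Fin N) := univ.filter (fun t => ∀ g', t ∉ L g')
  obtain ⟨c, hc⟩ : ∃ c : Fin a → ℕ, c = cnt (L g) e := ⟨_, rfl⟩
  -- one exchange
  have step : ∀ t1 ∈ L g, ∀ t ∈ O, (1 / 2 : ℝ) * ∑ v : Fin (l t), (1 / 2 : ℝ) ^ c (e ⟨t, v⟩) ≤
      ∑ w : Fin (l t1), (1 / 2 : ℝ) ^ c (e ⟨t1, w⟩) := by
    intro t1 ht1 t ht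
    have ht' : ∀ g', t ∉ L g' := (mem_filter.1 ht).2
    have htt : t ≠ t1 := fun h => ht' g (h ▸ ht1)
    obtain ⟨π, hπV, hπ1, hπ2⟩ := hEx e he' t t1 htt (hlen g t1 ht1 t ht')
    have h3 := hmin (e ∘ π) hπV
    have h4 : ∀ g', g' ≠ g → (∑ i, (1 / 2 : ℝ) ^ cnt (L g') (e ∘ π) i) =
        ∑ i, (1 / 2 : ℝ) ^ cnt (L g') e i := by
      intro g' hg'
      apply Finset.sum_congr rfl
      intro i _
      rw [cnt_exch_of_not_mem (L g') (ht' g')
        (fun h => Finset.disjoint_left.1 (hdis g' g hg') h ht1) e π hπ1 i]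
    have h5 : (∑ i, (1 / 2 : ℝ) ^ c i) ≤ ∑ i, (1 / 2 : ℝ) ^ cnt (L g) (e ∘ π) i := by
      have h6 : Φ e ≤ Φ (e ∘ π) := h3
      simp only [Φ] at h6
      rw [← Finset.add_sum_erase _ _ (Finset.mem_univ g),
        ← Finset.add_sum_erase _ _ (Finset.mem_univ g)] at h6
      rw [Finset.sum_congr rfl (fun g' hg' => h4 g' (Finset.ne_of_mem_erase hg'))] at h6
      rw [hc]
      linarith
    -- pointwise
    obtain ⟨hh, hhh⟩ : ∃ hh : Fin a → ℕ, hh = fun i =>
      (univ.filter (fun v : Fin (l t) => e (π ⟨t, v⟩) = i)).card := ⟨_, rfl⟩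
    obtain ⟨kk, hkk⟩ : ∃ kk : Fin a → ℕ, kk = fun i =>
      (univ.filter (fun v : Fin (l t) => e ⟨t, v⟩ = i)).card := ⟨_, rfl⟩
    have hcount : ∀ i, cnt (L g) (e ∘ π) i + hh i = c i + kk i := by
      intro i
      rw [hhh, hkk, hc]
      exact cnt_exch (L g) (ht' g) ht1 e π hπ1 hπ2 i
    have hh1 : ∀ i, hh i ≤ 1 := by
      intro i
      rw [hhh]
      apply Finset.card_le_one.2
      intro v hv v' hv'
      rw [mem_filter] at hv hv'
      have h7 := hanti (e ∘ π) hπV t v v' (by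
        simp only [Function.comp_apply]
        rw [hv.2, hv'.2])
      exact h7
    have hk1 : ∀ i, kk i ≤ 1 := by
      intro i
      rw [hkk]
      apply Finset.card_le_one.2
      intro v hv v' hv'
      rw [mem_filter] at hv hv'
      exact hanti e he' t v v' (by rw [hv.2, hv'.2])
    have hpt : ∀ i, (1 / 2 : ℝ) ^ cnt (L g) (e ∘ π) i ≤
        (1 / 2) ^ c i + (hh i : ℝ) * (1 / 2) ^ c i - (1 / 2) * ((kk i : ℝ) * (1 / 2) ^ c i) := by
      intro i
      have h7 := hcount i
      have h8 := hh1 i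
      have h9 := hk1 i
      have h10 : (0 : ℝ) < (1 / 2) ^ c i := by positivity
      rcases Nat.le_one_iff_eq_zero_or_eq_one.1 h8 with h8 | h8 <;>
        rcases Nat.le_one_iff_eq_zero_or_eq_one.1 h9 with h9 | h9
      · have h11 : cnt (L g) (e ∘ π) i = c i := by omega
        rw [h11, h8, h9]
        push_cast
        linarith
      · have h11 : cnt (L g) (e ∘ π) i = c i + 1 := by omega
        rw [h11, h8, h9, pow_succ]
        push_cast
        linarith
      · have h11 : c i = cnt (L g) (e ∘ π) i + 1 := by omega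
        rw [h11, h8, h9, pow_succ]
        push_cast
        linarith
      · have h11 : cnt (L g) (e ∘ π) i = c i := by omega
        rw [h11, h8, h9]
        push_cast
        linarith
    have h12 : (∑ i, (1 / 2 : ℝ) ^ c i) ≤ ∑ i, ((1 / 2) ^ c i + (hh i : ℝ) * (1 / 2) ^ c i -
        (1 / 2) * ((kk i : ℝ) * (1 / 2) ^ c i)) := h5.trans (Finset.sum_le_sum fun i _ => hpt i)
    rw [Finset.sum_sub_distrib, Finset.sum_add_distrib, ← Finset.mul_sum] at h12
    have hsumk : ∑ v : Fin (l t), (1 / 2 : ℝ) ^ c (e ⟨t, v⟩) =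
        ∑ i, (kk i : ℝ) * (1 / 2) ^ c i := by
      rw [hkk]
      rw [← Finset.sum_fiberwise_of_maps_to (s := univ) (t := univ)
        (g := fun v : Fin (l t) => e ⟨t, v⟩) (fun _ _ => Finset.mem_univ _)]
      apply Finset.sum_congr rfl
      intro i _
      rw [Finset.sum_congr rfl (fun v hv => by rw [(mem_filter.1 hv).2]), Finset.sum_const,
        nsmul_eq_mul]
    have hsumh : ∑ i, (hh i : ℝ) * (1 / 2) ^ c i ≤
        ∑ w : Fin (l t1), (1 / 2 : ℝ) ^ c (e ⟨t1, w⟩) := by
      have h13 : ∑ i, (hh i : ℝ) * (1 / 2) ^ c i =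
          ∑ v : Fin (l t), (1 / 2 : ℝ) ^ c (e (π ⟨t, v⟩)) := by
        rw [hhh]
        rw [← Finset.sum_fiberwise_of_maps_to (s := univ) (t := univ)
          (g := fun v : Fin (l t) => e (π ⟨t, v⟩)) (fun _ _ => Finset.mem_univ _)]
        apply Finset.sum_congr rfl
        intro i _
        rw [Finset.sum_congr rfl (fun v hv => by rw [(mem_filter.1 hv).2]), Finset.sum_const,
          nsmul_eq_mul]
      rw [h13]
      -- the boxes `π ⟨t, v⟩` are different boxes of the column `t1`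
      have h14 : ∀ v : Fin (l t), ∃ w : Fin (l t1), π ⟨t, v⟩ = ⟨t1, w⟩ := by
        intro v
        obtain ⟨q, hq⟩ : ∃ q, q = π ⟨t, v⟩ := ⟨_, rfl⟩
        have h15 := hπ2 v
        rw [← hq] at h15 ⊢
        obtain ⟨t', w⟩ := q
        simp only at h15
        subst h15
        exact ⟨w, rfl⟩
      choose ω hω using h14
      have hωi : Function.Injective ω := by
        intro v v' hvv
        have h15 : π ⟨t, v⟩ = π ⟨t, v'⟩ := by rw [hω, hω, hvv]
        have h16 := π.injective h15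
        simpa using h16
      calc ∑ v : Fin (l t), (1 / 2 : ℝ) ^ c (e (π ⟨t, v⟩)) =
          ∑ v : Fin (l t), (1 / 2 : ℝ) ^ c (e ⟨t1, ω v⟩) := by
            apply Finset.sum_congr rfl
            intro v _
            rw [hω]
        _ = ∑ w ∈ univ.image ω, (1 / 2 : ℝ) ^ c (e ⟨t1, w⟩) := by
            rw [Finset.sum_image (fun x _ y _ h => hωi h)]
        _ ≤ _ := Finset.sum_le_sum_of_subset_of_nonneg (Finset.subset_univ _)
            (fun _ _ _ => by positivity)
    rw [hsumk]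
    linarith
  -- sum over `t1 ∈ L g` and `t ∈ O`
  have hsum1 : ∑ t1 ∈ L g, ∑ w : Fin (l t1), (1 / 2 : ℝ) ^ c (e ⟨t1, w⟩) =
      ∑ i, (c i : ℝ) * (1 / 2) ^ c i := by
    rw [sum_col (L g) e (fun i => (1 / 2 : ℝ) ^ c i), hc]
  have hsum2 : ∑ t ∈ O, ∑ v : Fin (l t), (1 / 2 : ℝ) ^ c (e ⟨t, v⟩) =
      ∑ i, (cnt O e i : ℝ) * (1 / 2) ^ c i := sum_col O e (fun i => (1 / 2 : ℝ) ^ c i)
  have hdouble : (1 / 2 : ℝ) * (((L g).card : ℝ) * ∑ i, (cnt O e i : ℝ) * (1 / 2) ^ c i) ≤
      (O.card : ℝ) * ∑ i, (c i : ℝ) * (1 / 2) ^ c i := by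
    rw [← hsum1, ← hsum2]
    have h3 : ∑ t1 ∈ L g, ∑ t ∈ O, (1 / 2 : ℝ) * ∑ v : Fin (l t), (1 / 2 : ℝ) ^ c (e ⟨t, v⟩) ≤
        ∑ t1 ∈ L g, ∑ t ∈ O, ∑ w : Fin (l t1), (1 / 2 : ℝ) ^ c (e ⟨t1, w⟩) :=
      Finset.sum_le_sum fun t1 ht1 => Finset.sum_le_sum fun t ht => step t1 ht1 t ht
    simp only [Finset.sum_const, nsmul_eq_mul, ← Finset.mul_sum] at h3
    linarith
  -- the rows are long outside
  have hcol : ∀ (M : Finset (Fin N)) (i : Fin a), cnt M e i ≤ M.card := by
    intro M i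
    unfold cnt
    calc (univ.filter (fun p : Σ t, Fin (l t) => p.1 ∈ M ∧ e p = i)).card ≤
        (M.image id).card := by
          apply Finset.card_le_card_of_injOn (fun p => p.1)
          · intro p hp
            have h3 := (mem_filter.1 hp).2.1
            simpa using h3
          · rintro ⟨t, u⟩ hp ⟨t', u'⟩ hp' htt
            simp only [Finset.coe_filter, Finset.mem_univ, true_and, Set.mem_ofPred_eq] at hp hp'
            simp only at htt
            subst htt
            have h3 := hanti e he' t u u' (by rw [hp.2, hp'.2])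
            rw [h3]
      _ = M.card := by rw [Finset.image_id]
  have hOcard : (O.card : ℝ) = (N : ℝ) - ∑ g', ((L g').card : ℝ) := by
    have h3 : univ = O ∪ univ.biUnion L := by
      ext t
      simp only [mem_univ, mem_union, mem_biUnion, true_and, true_iff, O, mem_filter]
      by_cases h : ∃ g', t ∈ L g'
      · exact Or.inr h
      · push Not at h
        exact Or.inl h
    have h4 : Disjoint O (univ.biUnion L) := by
      rw [Finset.disjoint_left]
      intro t ht ht'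
      rw [mem_biUnion] at ht'
      obtain ⟨g', _, hg'⟩ := ht'
      exact (mem_filter.1 ht).2 g' hg'
    have h5 : (univ.biUnion L).card = ∑ g', (L g').card :=
      Finset.card_biUnion (fun g _ g' _ h => hdis g g' h)
    have h6 : (univ : Finset (Fin N)).card = O.card + ∑ g', (L g').card := by
      conv_lhs => rw [h3]
      rw [Finset.card_union_of_disjoint h4, h5]
    rw [Finset.card_univ, Fintype.card_fin] at h6
    have h7 : (N : ℝ) = (O.card : ℝ) + ∑ g', ((L g').card : ℝ) := by exact_mod_cast h6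
    linarith
  have hout : ∀ i, (b : ℝ) - ∑ g', ((L g').card : ℝ) ≤ cnt O e i := by
    intro i
    have h3 : b = cnt O e i + ∑ g', cnt (L g') e i := by
      rw [← hcard e he' i]
      have h4 : univ.filter (fun p : Σ t, Fin (l t) => e p = i) =
          univ.filter (fun p : Σ t, Fin (l t) => p.1 ∈ O ∧ e p = i) ∪
          univ.biUnion (fun g' => univ.filter (fun p : Σ t, Fin (l t) => p.1 ∈ L g' ∧
            e p = i)) := by
        ext p
        simp only [mem_filter, mem_univ, true_and, mem_union, mem_biUnion, O]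
        constructor
        · intro h
          by_cases h' : ∃ g', p.1 ∈ L g'
          · obtain ⟨g', hg'⟩ := h'
            exact Or.inr ⟨g', hg', h⟩
          · push Not at h'
            exact Or.inl ⟨h', h⟩
        · rintro (⟨_, h⟩ | ⟨_, _, h⟩)
          · exact h
          · exact h
      rw [h4, Finset.card_union_of_disjoint, Finset.card_biUnion]
      · rfl
      · intro g1 _ g2 _ h12
        rw [Function.onFun, Finset.disjoint_left] at *
        intro p hp hp'
        rw [mem_filter] at hp hp'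
        exact Finset.disjoint_left.1 (hdis g1 g2 h12) hp.2.1 hp'.2.1
      · rw [Finset.disjoint_left]
        intro p hp hp'
        rw [mem_biUnion] at hp'
        obtain ⟨g', _, hg'⟩ := hp'
        rw [mem_filter] at hp hg'
        exact (mem_filter.1 hp.2.1).2 g' hg'.2.1
    have h5 : (∑ g', (cnt (L g') e i : ℝ)) ≤ ∑ g', ((L g').card : ℝ) :=
      Finset.sum_le_sum fun g' _ => by exact_mod_cast hcol (L g') i
    have h6 : (b : ℝ) = (cnt O e i : ℝ) + ∑ g', (cnt (L g') e i : ℝ) := by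
      rw [h3]
      push_cast
      ring
    linarith
  -- conclusion
  have hT : 0 < (N : ℝ) - ∑ g', ((L g').card : ℝ) := by
    have : ((∑ g, (L g).card : ℕ) : ℝ) < (N : ℝ) := by exact_mod_cast hN
    push_cast at this
    linarith
  obtain ⟨T, hTd⟩ : ∃ T, T = (N : ℝ) - ∑ g', ((L g').card : ℝ) := ⟨_, rfl⟩
  obtain ⟨D, hDd⟩ : ∃ D, D = (b : ℝ) - ∑ g', ((L g').card : ℝ) := ⟨_, rfl⟩
  rw [← hTd, ← hDd]
  rw [← hTd] at hT hOcard
  have hlow : D * ∑ i, (1 / 2 : ℝ) ^ c i ≤ ∑ i, (cnt O e i : ℝ) * (1 / 2) ^ c i := by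
    rw [Finset.mul_sum]
    apply Finset.sum_le_sum
    intro i _
    apply mul_le_mul_of_nonneg_right _ (by positivity)
    rw [hDd]
    exact hout i
  rw [hOcard] at hdouble
  obtain ⟨x0, hx0⟩ : ∃ x0 : ℝ, x0 = ((L g).card : ℝ) * D / (2 * T) := ⟨_, rfl⟩
  have hx1 : 2 * T * x0 = ((L g).card : ℝ) * D := by
    rw [hx0]
    field_simp
  have hfin : 0 ≤ ∑ i, (1 / 2 : ℝ) ^ c i * ((c i : ℝ) - x0) := by
    have h3 : ∑ i, (1 / 2 : ℝ) ^ c i * ((c i : ℝ) - x0) =
        (∑ i, (c i : ℝ) * (1 / 2) ^ c i) - x0 * ∑ i, (1 / 2 : ℝ) ^ c i := by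
      rw [Finset.mul_sum, ← Finset.sum_sub_distrib]
      apply Finset.sum_congr rfl
      intro i _
      ring
    rw [h3]
    have h4 : ((L g).card : ℝ) * (D * ∑ i, (1 / 2 : ℝ) ^ c i) ≤
        2 * T * ∑ i, (c i : ℝ) * (1 / 2) ^ c i := by
      have h5 : ((L g).card : ℝ) * (D * ∑ i, (1 / 2 : ℝ) ^ c i) ≤
          ((L g).card : ℝ) * ∑ i, (cnt O e i : ℝ) * (1 / 2) ^ c i :=
        mul_le_mul_of_nonneg_left hlow (by positivity)
      linarith
    have h6 : 2 * T * (x0 * ∑ i, (1 / 2 : ℝ) ^ c i) ≤ 2 * T * ∑ i, (c i : ℝ) * (1 / 2) ^ c i := by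
      calc 2 * T * (x0 * ∑ i, (1 / 2 : ℝ) ^ c i) = (2 * T * x0) * ∑ i, (1 / 2 : ℝ) ^ c i := by
            ring
        _ = ((L g).card : ℝ) * (D * ∑ i, (1 / 2 : ℝ) ^ c i) := by
            rw [hx1]
            ring
        _ ≤ _ := h4
    have h7 := le_of_mul_le_mul_left h6 (by linarith)
    linarith
  have h8 := bal_num c x0 Y (by rw [Fintype.card_fin]; exact hY) hfin i0
  rw [hc] at h8
  rw [← hx1]
  exact mul_le_mul_of_nonneg_left h8 (by linarith)

end Vale.Agent.P181.H67
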