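import Vale.Agent.P181.LK.Spec
import Vale.Agent.P181.H67.BalPure

/-!
P181, `b = q a + u`: row BAL, from GA and GK.
-/

set_option autoImplicit false

namespace Vale.Agent.P181.H67.LBal

open Vale.Agent.P181 Vale.Agent.P181.H280 Vale.Agent.P181.H179 Vale.Agent.P181.LK Finset

lemma VV_swap {n a N : ℕ} {l : Fin N → ℕ}
    (F : MultilinearMap ℂ (fun _ : Fin a => MvPolynomial (Fin n) ℂ) ℂ) (e : Box l → Fin a)
    (t : Fin N) {u v : Fin (l t)} (huv : u ≠ v) :
    VV F l (fun p => e (Equiv.swap (⟨t, u⟩ : Box l) ⟨t, v⟩ p)) = - VV F l e := by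
  classical
  have h1 := VV_perm F e (Pi.mulSingle t (Equiv.swap u v))
  have h2 : (fun p : Box l => e ⟨p.1, (Pi.mulSingle t (Equiv.swap u v) :
      ∀ t, Equiv.Perm (Fin (l t))) p.1 p.2⟩) =
      fun p => e (Equiv.swap (⟨t, u⟩ : Box l) ⟨t, v⟩ p) := by
    funext p
    obtain ⟨t', s⟩ := p
    by_cases ht : t' = t
    · subst ht
      simp only [Pi.mulSingle_eq_same]
      by_cases hu : s = u
      · subst hu
        rw [Equiv.swap_apply_left, Equiv.swap_apply_left]
      · by_cases hv : s = v
        · subst hv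
          rw [Equiv.swap_apply_right, Equiv.swap_apply_right]
        · rw [Equiv.swap_apply_of_ne_of_ne hu hv, Equiv.swap_apply_of_ne_of_ne]
          · intro h
            apply hu
            simpa using h
          · intro h
            apply hv
            simpa using h
    · simp only [Pi.mulSingle_eq_of_ne ht]
      rw [Equiv.swap_apply_of_ne_of_ne]
      · rfl
      · intro h
        exact ht (congrArg Sigma.fst h)
      · intro h
        exact ht (congrArg Sigma.fst h)
  have h3 : (∏ t', ((Equiv.Perm.sign ((Pi.mulSingle t (Equiv.swap u v) :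
      ∀ t, Equiv.Perm (Fin (l t))) t') : ℤ) : ℂ)) = -1 := by
    rw [Finset.prod_eq_single t]
    · rw [Pi.mulSingle_eq_same, Equiv.Perm.sign_swap huv]
      simp
    · intro t' _ ht
      rw [Pi.mulSingle_eq_of_ne ht, Equiv.Perm.sign_one]
      simp
    · intro hh
      exact absurd (Finset.mem_univ _) hh
  rw [h2, h3, neg_one_mul] at h1
  exact h1

/-- The exchange is a permutation of the boxes. -/
lemma exch_perm {B A : Type} [DecidableEq B] {k m : ℕ} (x : Fin k → B) (w : Fin m → B)
    (ι : Fin k → Fin m) (hx : Function.Injective x) (hw : Function.Injective w)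
    (hι : Function.Injective ι) (hxw : ∀ i j, x i ≠ w j) :
    ∃ π : Equiv.Perm B, (∀ e : B → A, exch x w ι e = e ∘ π) ∧
      (∀ p, (∀ i, x i ≠ p) → (∀ j, w j ≠ p) → π p = p) ∧ ∀ i, π (x i) = w (ι i) := by
  classical
  let f : B → B := fun p =>
    if h : ∃ i, x i = p then w (ι h.choose)
    else if h : ∃ i, w (ι i) = p then x h.choose else p
  have f1 : ∀ i, f (x i) = w (ι i) := by
    intro i
    have h : ∃ i', x i' = x i := ⟨i, rfl⟩
    simp only [f]
    rw [dif_pos h, hx h.choose_spec]
  have f2 : ∀ i, f (w (ι i)) = x i := by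
    intro i
    have h1 : ¬ ∃ i', x i' = w (ι i) := by
      rintro ⟨i', h⟩
      exact hxw _ _ h
    have h2 : ∃ i', w (ι i') = w (ι i) := ⟨i, rfl⟩
    simp only [f]
    rw [dif_neg h1, dif_pos h2, hι (hw h2.choose_spec)]
  have hinv : Function.Involutive f := by
    intro p
    by_cases h1 : ∃ i, x i = p
    · obtain ⟨i, rfl⟩ := h1
      rw [f1, f2]
    · by_cases h2 : ∃ i, w (ι i) = p
      · obtain ⟨i, rfl⟩ := h2
        rw [f2, f1]
      · have h3 : f p = p := by
          simp only [f]
          rw [dif_neg h1, dif_neg h2]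
        rw [h3, h3]
  refine ⟨hinv.toPerm f, ?_, ?_, fun i => f1 i⟩
  · intro e
    funext p
    simp only [exch, Function.comp_apply, Function.Involutive.coe_toPerm, f]
    split_ifs <;> rfl
  · intro p h1 h2
    have h1' : ¬ ∃ i, x i = p := by
      rintro ⟨i, h⟩
      exact h1 i h
    have h2' : ¬ ∃ i, w (ι i) = p := by
      rintro ⟨i, h⟩
      exact h2 _ h
    rw [Function.Involutive.coe_toPerm]
    simp only [f]
    rw [dif_neg h1', dif_neg h2']

/-- **Row BAL.** -/
theorem rowBAL (hGA : RowGA) (hGK : RowGK) : RowBAL := by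
  classical
  intro n a b N G x l F hF L hdis hlen hnum hN hne
  obtain ⟨S, hS⟩ : ∃ S, S = ∑ h, (L h).card := ⟨_, rfl⟩
  have hEx : Exch (fun e : Box l → Fin a => VV F l e ≠ 0) := by
    intro e he t t1 htt hl
    obtain ⟨ι, hι, hV⟩ := hGK (Box l) (Fin a) (l t) (l t1) (fun i => ⟨t, i⟩) (fun j => ⟨t1, j⟩)
      (fun i j h => by simpa using h) (fun i j h => by simpa using h)
      (fun i j h => htt (congrArg Sigma.fst h)) (VV F l)
      (fun e' i j hij => VV_swap F e' t hij)
      (fun e' i => hGA n a N l F e' t t1 htt hl i) e he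
    obtain ⟨π, h1, h2, h3⟩ := exch_perm (A := Fin a) (fun i : Fin (l t) => (⟨t, i⟩ : Box l))
      (fun j : Fin (l t1) => (⟨t1, j⟩ : Box l)) ι (fun i j h => by simpa using h)
      (fun i j h => by simpa using h) hι (fun i j h => htt (congrArg Sigma.fst h))
    refine ⟨π, ?_, ?_, ?_⟩
    · rw [← h1 e]
      exact hV
    · intro p hp hp1
      apply h2
      · rintro i rfl
        exact hp rfl
      · rintro i rfl
        exact hp1 rfl
    · intro v
      rw [h3 v]
  obtain ⟨e, he, hbal⟩ := bal_pure (fun e : Box l → Fin a => VV F l e ≠ 0) hEx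
    (fun e he t u v h => by
      by_contra huv
      exact he (VV_anti F e t huv h)) (b := b)
    (fun e he i => VV_card hF he i) L hdis hlen hN (Nat.log 2 a + 1)
    (Nat.lt_pow_succ_log_self (by norm_num) a).le hne
  refine ⟨e, he, fun g i => ?_⟩
  have h1 := hbal g i
  have h2 := hnum g
  rw [← hS] at h2 hN
  have hSR : (∑ g', ((L g').card : ℝ)) = (S : ℝ) := by
    rw [hS]
    push_cast
    rfl
  rw [hSR] at h1
  have hNS : 1 ≤ N - S := by omega
  have h3 : 1 ≤ 2 * (N - S) * (x + Nat.log 2 a + 1) :=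
    Nat.mul_pos (Nat.mul_pos (by norm_num) hNS) (by omega)
  have hbS : S ≤ b := by
    by_contra hcon
    have h4 : b - S = 0 := by omega
    rw [h4, mul_zero] at h2
    omega
  have h5 : (2 : ℝ) * ((N : ℝ) - S) * ((x : ℝ) + Nat.log 2 a + 1) ≤
      ((L g).card : ℝ) * ((b : ℝ) - S) := by
    have h6 : ((2 * (N - S) * (x + Nat.log 2 a + 1) : ℕ) : ℝ) ≤
        (((L g).card * (b - S) : ℕ) : ℝ) := by exact_mod_cast h2
    rw [Nat.cast_mul, Nat.cast_mul, Nat.cast_mul, Nat.cast_sub hN.le, Nat.cast_sub hbS] at h6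
    push_cast at h6
    exact h6
  have h7 := h5.trans h1
  have h8 : (0 : ℝ) < 2 * ((N : ℝ) - S) := by
    have : (S : ℝ) < N := by exact_mod_cast hN
    linarith
  have h9 := le_of_mul_le_mul_left h7 h8
  push_cast at h9
  have h10 : (x : ℝ) ≤ Vale.Agent.P181.H67.cnt (L g) e i := by linarith
  have h11 : x ≤ Vale.Agent.P181.H67.cnt (L g) e i := by exact_mod_cast h10
  have h12 : Vale.Agent.P181.H67.cnt (L g) e i = Vale.Agent.P181.LK.cnt e i (L g) := by
    unfold Vale.Agent.P181.H67.cnt Vale.Agent.P181.LK.cnt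
    congr 1
    ext p
    simp only [mem_filter, mem_univ, true_and]
    exact and_comm
  rw [← h12]
  exact h11

end Vale.Agent.P181.H67.LBal
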